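import Vale.Agent.Lib.P037.Blow.Rect

open Finset

namespace Vale.Agent.Lib.P037.Blow

open Vale.Agent.Results.P037.DiagonalRemoval
open Vale.Agent.Lib.P037.Two

variable {n p q : ℕ}

/-- The block pattern: first `a` rows and first `b` columns form the blocks. -/
def tp (M : Fin 2 → Fin 2 → Bool) (a b : ℕ) : Fin p → Fin q → Bool :=
  fun i j => M (if i.val < a then 0 else 1) (if j.val < b then 0 else 1)

/-- Either `n` is small compared with `1 / x`, or there are many copies. -/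
def SS (M : Fin 2 → Fin 2 → Bool) (A : Fin n → Fin n → Bool) (x : ℝ) (p q a b : ℕ) : Prop :=
  x * n < 2 ∨ x * (n : ℝ) ^ (p + q) ≤ (rcount (tp M a b : Fin p → Fin q → Bool) A : ℝ)

theorem step_real {x m Pr N' N : ℝ} (hx0 : 0 < x) (hx1 : x ≤ 1) (hm : 0 < m) (hPr : 0 < Pr)
    (hN0 : 0 ≤ N) (hCS : N' ^ 2 ≤ Pr * (2 * N + N')) (hS : x * m < 2 ∨ x * (m * Pr) ≤ N') :
    x ^ 2 / 4 * m < 2 ∨ x ^ 2 / 4 * (m * (m * Pr)) ≤ N := by
  by_cases hxn : x * m < 2
  · left
    have h1 : x ^ 2 / 4 ≤ x := by nlinarith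
    have h2 : x ^ 2 / 4 * m ≤ x * m := mul_le_mul_of_nonneg_right h1 hm.le
    linarith
  · right
    push Not at hxn
    have h0 : x * (m * Pr) ≤ N' := by
      rcases hS with h | h
      · exact absurd h (not_lt.mpr hxn)
      · exact h
    have h2 : 2 * Pr ≤ N' := by
      have : 2 * Pr ≤ (x * m) * Pr := mul_le_mul_of_nonneg_right hxn hPr.le
      have e : (x * m) * Pr = x * (m * Pr) := by ring
      linarith
    have hN'0 : 0 ≤ N' := by linarith
    have h3 : Pr * N' ≤ N' ^ 2 / 2 := by nlinarith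
    have h4 : N' ^ 2 ≤ 4 * (Pr * N) := by nlinarith
    have h5 : (x * (m * Pr)) ^ 2 ≤ N' ^ 2 := pow_le_pow_left₀ (by positivity) h0 2
    have h6 : Pr * (x ^ 2 * (m * (m * Pr))) ≤ Pr * (4 * N) := by
      have e : Pr * (x ^ 2 * (m * (m * Pr))) = (x * (m * Pr)) ^ 2 := by ring
      rw [e]
      linarith
    have h7 := le_of_mul_le_mul_left h6 hPr
    linarith

theorem step_row (M : Fin 2 → Fin 2 → Bool) (A : Fin n → Fin n → Bool) (hn : 0 < n) {x : ℝ}
    (hx0 : 0 < x) (hx1 : x ≤ 1) {a a' b : ℕ} (i : Fin (p + 1))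
    (hcoll : ∀ l : Fin (p + 2), (coll i l).val < a ↔ l.val < a')
    (h : SS M A x (p + 1) q a b) : SS M A (x ^ 2 / 4) (p + 2) q a' b := by
  have hnR : (0 : ℝ) < (n : ℝ) := by exact_mod_cast hn
  have hdup : dupRow (tp M a b : Fin (p + 1) → Fin q → Bool) i = tp M a' b := by
    funext l j
    simp only [dupRow, tp, hcoll]
  have hCS := rcount_sq_le (tp M a b : Fin (p + 1) → Fin q → Bool) i A
  rw [hdup] at hCS
  have hCSR : ((rcount (tp M a b : Fin (p + 1) → Fin q → Bool) A : ℕ) : ℝ) ^ 2 ≤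
      ((n : ℝ) ^ p * (n : ℝ) ^ q) * (2 * (rcount (tp M a' b : Fin (p + 2) → Fin q → Bool) A : ℝ) +
        (rcount (tp M a b : Fin (p + 1) → Fin q → Bool) A : ℝ)) := by
    exact_mod_cast hCS
  have e1 : (n : ℝ) ^ (p + 1 + q) = (n : ℝ) * ((n : ℝ) ^ p * (n : ℝ) ^ q) := by ring
  have e2 : (n : ℝ) ^ (p + 2 + q) = (n : ℝ) * ((n : ℝ) * ((n : ℝ) ^ p * (n : ℝ) ^ q)) := by ring
  unfold SS at h ⊢
  rw [e1] at h
  rw [e2]
  exact step_real hx0 hx1 hnR (by positivity) (Nat.cast_nonneg _) hCSR h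

theorem tr_tp (M : Fin 2 → Fin 2 → Bool) (a b : ℕ) :
    tr (tp M a b : Fin p → Fin q → Bool) = (tp (tr M) b a : Fin q → Fin p → Bool) := rfl

theorem SS_tr (M : Fin 2 → Fin 2 → Bool) (A : Fin n → Fin n → Bool) (x : ℝ) (p q a b : ℕ) :
    SS (tr M) (tr A) x q p b a ↔ SS M A x p q a b := by
  unfold SS
  rw [← tr_tp, rcount_tr, add_comm q p]

theorem step_col (M : Fin 2 → Fin 2 → Bool) (A : Fin n → Fin n → Bool) (hn : 0 < n) {x : ℝ}
    (hx0 : 0 < x) (hx1 : x ≤ 1) {a b b' : ℕ} (i : Fin (q + 1))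
    (hcoll : ∀ l : Fin (q + 2), (coll i l).val < b ↔ l.val < b')
    (h : SS M A x p (q + 1) a b) : SS M A (x ^ 2 / 4) p (q + 2) a b' := by
  rw [← SS_tr] at h ⊢
  exact step_row (tr M) (tr A) hn hx0 hx1 i hcoll h

/-- The hypothesis of being far from the free matrices of `M`. -/
def Far (M : Fin 2 → Fin 2 → Bool) (ε : ℝ) (A : Fin n → Fin n → Bool) : Prop :=
  ∀ B : Fin n → Fin n → Bool, countCopies M B = 0 → ε * ((n : ℝ) * n) ≤ (diffCount A B : ℝ)

/-- The polynomial bound in the intermediate form. -/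
def Good (M : Fin 2 → Fin 2 → Bool) (p q a b : ℕ) : Prop :=
  ∃ (c : ℝ) (C : ℕ), 0 < c ∧ c ≤ 1 ∧ 0 < C ∧ ∀ (n : ℕ), 0 < n → ∀ ε : ℝ, 0 < ε → ε < 1 →
    ∀ A : Fin n → Fin n → Bool, Far M ε A → SS M A (c * ε ^ C) p q a b

theorem tp_two (M : Fin 2 → Fin 2 → Bool) : (tp M 1 1 : Fin 2 → Fin 2 → Bool) = M := by
  funext i j
  fin_cases i <;> fin_cases j <;> rfl

theorem good_base (M : Fin 2 → Fin 2 → Bool) : Good M 2 2 1 1 := by
  refine ⟨(1 / 14 : ℝ) ^ 234, 234, by positivity, ?_, by norm_num, ?_⟩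
  · exact pow_le_one₀ (by norm_num) (by norm_num)
  · intro n hn ε h0 h1 A hfar
    right
    have key := removal_all M n hn ε h0 h1 A hfar
    have e : (1 / 14 : ℝ) ^ 234 * ε ^ 234 = (ε / 14) ^ 234 := by
      rw [← mul_pow]
      congr 1
      ring
    rw [e, tp_two]
    exact key

theorem good_next {c : ℝ} {C : ℕ} (hc0 : 0 < c) (hc1 : c ≤ 1) {ε : ℝ} (h0 : 0 < ε) (h1 : ε < 1) :
    0 < c * ε ^ C ∧ c * ε ^ C ≤ 1 ∧ (c * ε ^ C) ^ 2 / 4 = (c ^ 2 / 4) * ε ^ (2 * C) := by
  refine ⟨by positivity, ?_, ?_⟩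
  · have h2 : ε ^ C ≤ 1 := pow_le_one₀ h0.le h1.le
    have h3 : 0 ≤ ε ^ C := by positivity
    nlinarith
  · rw [mul_pow, ← pow_mul, mul_comm C 2]
    ring

theorem good_row (M : Fin 2 → Fin 2 → Bool) {a a' b : ℕ} (i : Fin (p + 1))
    (hcoll : ∀ l : Fin (p + 2), (coll i l).val < a ↔ l.val < a')
    (h : Good M (p + 1) q a b) : Good M (p + 2) q a' b := by
  obtain ⟨c, C, hc0, hc1, hC, hmain⟩ := h
  refine ⟨c ^ 2 / 4, 2 * C, by positivity, by nlinarith, by omega, ?_⟩
  intro n hn ε h0 h1 A hfar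
  obtain ⟨hx0, hx1, e⟩ := good_next (C := C) hc0 hc1 h0 h1
  rw [← e]
  exact step_row M A hn hx0 hx1 i hcoll (hmain n hn ε h0 h1 A hfar)

theorem good_col (M : Fin 2 → Fin 2 → Bool) {a b b' : ℕ} (i : Fin (q + 1))
    (hcoll : ∀ l : Fin (q + 2), (coll i l).val < b ↔ l.val < b')
    (h : Good M p (q + 1) a b) : Good M p (q + 2) a b' := by
  obtain ⟨c, C, hc0, hc1, hC, hmain⟩ := h
  refine ⟨c ^ 2 / 4, 2 * C, by positivity, by nlinarith, by omega, ?_⟩
  intro n hn ε h0 h1 A hfar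
  obtain ⟨hx0, hx1, e⟩ := good_next (C := C) hc0 hc1 h0 h1
  rw [← e]
  exact step_col M A hn hx0 hx1 i hcoll (hmain n hn ε h0 h1 A hfar)

theorem good_rows (M : Fin 2 → Fin 2 → Bool) (P : ℕ) (hP : 2 ≤ P) :
    ∀ a, 0 < a → a < P → Good M P 2 a 1 := by
  induction P, hP using Nat.le_induction with
  | base =>
    intro a h1 h2
    have : a = 1 := by omega
    subst this
    exact good_base M
  | succ P hP ih =>
    intro a h1 h2
    obtain ⟨p', rfl⟩ : ∃ p', P = p' + 1 := ⟨P - 1, by omega⟩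
    by_cases ha : 2 ≤ a
    · have hgood := ih (a - 1) (by omega) (by omega)
      refine good_row M (a := a - 1) (⟨a - 2, by omega⟩ : Fin (p' + 1)) ?_ hgood
      intro l
      simp only [coll]
      split_ifs <;> omega
    · have : a = 1 := by omega
      subst this
      have hgood := ih 1 (by omega) (by omega)
      refine good_row M (a := 1) (⟨1, by omega⟩ : Fin (p' + 1)) ?_ hgood
      intro l
      simp only [coll]
      split_ifs <;> omega

theorem good_cols (M : Fin 2 → Fin 2 → Bool) {a : ℕ} (h : Good M p 2 a 1) (Q : ℕ) (hQ : 2 ≤ Q) :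
    ∀ b, 0 < b → b < Q → Good M p Q a b := by
  induction Q, hQ using Nat.le_induction with
  | base =>
    intro b h1 h2
    have : b = 1 := by omega
    subst this
    exact h
  | succ Q hQ ih =>
    intro b h1 h2
    obtain ⟨q', rfl⟩ : ∃ q', Q = q' + 1 := ⟨Q - 1, by omega⟩
    by_cases hb : 2 ≤ b
    · have hgood := ih (b - 1) (by omega) (by omega)
      refine good_col M (b := b - 1) (⟨b - 2, by omega⟩ : Fin (q' + 1)) ?_ hgood
      intro l
      simp only [coll]
      split_ifs <;> omega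
    · have : b = 1 := by omega
      subst this
      have hgood := ih 1 (by omega) (by omega)
      refine good_col M (b := 1) (⟨1, by omega⟩ : Fin (q' + 1)) ?_ hgood
      intro l
      simp only [coll]
      split_ifs <;> omega

/-- A matrix free of the block `M` is free of every block pattern built on `M`. -/
theorem free_of_free {k a b : ℕ} (ha : 0 < a) (hak : a < k) (hb : 0 < b) (hbk : b < k)
    (M : Fin 2 → Fin 2 → Bool) (H : Fin k → Fin k → Bool) (hH : H = tp M a b)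
    (B : Fin n → Fin n → Bool) (hB : countCopies M B = 0) : countCopies H B = 0 := by
  unfold countCopies at hB ⊢
  apply Finset.card_eq_zero.mpr
  apply Finset.eq_empty_of_forall_notMem
  intro x hx
  rw [mem_copies] at hx
  obtain ⟨h1, h2, h3⟩ := hx
  have hb0 := Finset.card_eq_zero.mp hB
  have hmem : ((![x.1 ⟨a - 1, by omega⟩, x.1 ⟨a, hak⟩] : Fin 2 → Fin n),
      (![x.2 ⟨b - 1, by omega⟩, x.2 ⟨b, hbk⟩] : Fin 2 → Fin n)) ∈ copies M B := by
    rw [mem_copies]
    refine ⟨?_, ?_, ?_⟩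
    · intro i j hij
      have h4 : x.1 ⟨a - 1, by omega⟩ < x.1 ⟨a, hak⟩ := h1 (by
        rw [Fin.lt_def]; simp only; omega)
      fin_cases i <;> fin_cases j <;> simp_all
    · intro i j hij
      have h4 : x.2 ⟨b - 1, by omega⟩ < x.2 ⟨b, hbk⟩ := h2 (by
        rw [Fin.lt_def]; simp only; omega)
      fin_cases i <;> fin_cases j <;> simp_all
    · intro i j
      have hval : ∀ (i' j' : Fin k), B (x.1 i') (x.2 j') = M (if i'.val < a then 0 else 1)
          (if j'.val < b then 0 else 1) := by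
        intro i' j'
        rw [h3, hH]
        rfl
      have h5 : a - 1 < a := by omega
      have h6 : b - 1 < b := by omega
      fin_cases i <;> fin_cases j
      · have := hval ⟨a - 1, by omega⟩ ⟨b - 1, by omega⟩
        simpa [h5, h6] using this
      · have := hval ⟨a - 1, by omega⟩ ⟨b, hbk⟩
        simpa [h5] using this
      · have := hval ⟨a, hak⟩ ⟨b - 1, by omega⟩
        simpa [h6] using this
      · have := hval ⟨a, hak⟩ ⟨b, hbk⟩
        simpa using this
  rw [hb0] at hmem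
  simp at hmem

/-- Polynomial removal for every pattern built from two row blocks and two column blocks. -/
theorem blow_main {k a b : ℕ} (ha : 0 < a) (hak : a < k) (hb : 0 < b) (hbk : b < k)
    (M : Fin 2 → Fin 2 → Bool) (H : Fin k → Fin k → Bool)
    (hH : ∀ i j, H i j = M (if i.val < a then 0 else 1) (if j.val < b then 0 else 1)) :
    ∃ (c : ℝ) (C : ℕ), 0 < c ∧ 0 < C ∧ ∀ (n : ℕ), 1 ≤ n → ∀ ε : ℝ, 0 < ε → ε < 1 →
      ∀ A : Fin n → Fin n → Bool, ε ≤ distH H A →
        c * ε ^ C * (n : ℝ) ^ (2 * k) ≤ (countCopies H A : ℝ) := by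
  have hH' : H = tp M a b := by
    funext i j
    exact hH i j
  have hgood : Good M k k a b :=
    good_cols M (good_rows M k (by omega) a ha hak) k (by omega) b hb hbk
  obtain ⟨c, C, hc0, hc1, hC, hmain⟩ := hgood
  refine ⟨(c / 2) ^ (2 * k), C * (2 * k), by positivity, by
    have : 0 < 2 * k := by omega
    positivity, ?_⟩
  intro n hn ε h0 h1 A hfar
  have hn' : 0 < n := hn
  have hnR : (0 : ℝ) < (n : ℝ) := by exact_mod_cast hn'
  have hFar : Far M ε A := by
    intro B hB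
    exact far_elim hn' hfar B (free_of_free ha hak hb hbk M H hH' B hB)
  have hSS := hmain n hn' ε h0 h1 A hFar
  obtain ⟨hx0, hx1, _⟩ := good_next (C := C) hc0 hc1 h0 h1
  set x := c * ε ^ C with hx
  have e : (c / 2) ^ (2 * k) * ε ^ (C * (2 * k)) = (x / 2) ^ (2 * k) := by
    rw [hx, pow_mul ε, ← mul_pow]
    congr 1
    ring
  rw [e]
  -- the copy count is positive
  have hN1 : 1 ≤ countCopies H A := by
    by_contra hcon
    have hzero : countCopies H A = 0 := by omega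
    have h2 := far_elim hn' hfar A hzero
    have h3 : diffCount A A = 0 := by
      unfold diffCount
      simp
    rw [h3] at h2
    have h4 : 0 < ε * ((n : ℝ) * n) := by positivity
    simp at h2
    linarith
  have hN1R : (1 : ℝ) ≤ (countCopies H A : ℝ) := by exact_mod_cast hN1
  unfold SS at hSS
  rw [← hH'] at hSS
  rw [rcount_eq] at hSS
  have hk1 : 2 * k ≠ 0 := by omega
  rcases hSS with hsmall | hlarge
  · have h2 : x / 2 * (n : ℝ) ≤ 1 := by linarith
    have h3 : (x / 2 * (n : ℝ)) ^ (2 * k) ≤ 1 := pow_le_one₀ (by positivity) h2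
    rw [mul_pow] at h3
    linarith
  · have h2 : (x / 2) ^ (2 * k) ≤ x := by
      have h3 : (x / 2) ^ (2 * k) ≤ x / 2 :=
        pow_le_of_le_one (by positivity) (by linarith) hk1
      linarith
    have h4 : (n : ℝ) ^ (2 * k) = (n : ℝ) ^ (k + k) := by
      congr 1
      omega
    rw [h4]
    have h5 : (0 : ℝ) ≤ (n : ℝ) ^ (k + k) := by positivity
    have h6 := mul_le_mul_of_nonneg_right h2 h5
    linarith

end Vale.Agent.Lib.P037.Blow
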