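import Vale.Agent.Lib.P037.Two.All

open Finset

namespace Vale.Agent.Lib.P037.Blow

open Vale.Agent.Results.P037.DiagonalRemoval

variable {n p q : ℕ}

open scoped Classical in
/-- Ordered copies of a rectangular pattern. -/
noncomputable def rcopies (H : Fin p → Fin q → Bool) (A : Fin n → Fin n → Bool) :
    Finset ((Fin p → Fin n) × (Fin q → Fin n)) :=
  univ.filter (fun x => StrictMono x.1 ∧ StrictMono x.2 ∧ ∀ i j, A (x.1 i) (x.2 j) = H i j)

/-- Number of ordered copies of a rectangular pattern. -/
noncomputable def rcount (H : Fin p → Fin q → Bool) (A : Fin n → Fin n → Bool) : ℕ :=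
  (rcopies H A).card

theorem mem_rcopies {H : Fin p → Fin q → Bool} {A : Fin n → Fin n → Bool}
    {x : (Fin p → Fin n) × (Fin q → Fin n)} :
    x ∈ rcopies H A ↔ StrictMono x.1 ∧ StrictMono x.2 ∧ ∀ i j, A (x.1 i) (x.2 j) = H i j := by
  unfold rcopies
  rw [Finset.mem_filter]
  simp

theorem rcount_eq {k : ℕ} (H : Fin k → Fin k → Bool) (A : Fin n → Fin n → Bool) :
    rcount H A = countCopies H A := rfl

/-- Cauchy-Schwarz over the fibres of a map. -/
theorem fiber_cs {S T : Type} [DecidableEq S] [DecidableEq T] [Fintype T] (s : Finset S) (f : S → T) :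
    s.card ^ 2 ≤ Fintype.card T * ((s ×ˢ s).filter (fun x => f x.1 = f x.2)).card := by
  have h1 : s.card = ∑ t, (s.filter (fun x => f x = t)).card :=
    Finset.card_eq_sum_card_fiberwise (fun x _ => Finset.mem_coe.mpr (Finset.mem_univ (f x)))
  have h2 : ((s ×ˢ s).filter (fun x => f x.1 = f x.2)).card =
      ∑ t, (s.filter (fun x => f x = t)).card ^ 2 := by
    rw [Finset.card_eq_sum_card_fiberwise (f := fun x => f x.1) (t := univ)
      (fun x _ => Finset.mem_coe.mpr (Finset.mem_univ _))]
    apply Finset.sum_congr rfl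
    intro t _
    rw [sq, ← Finset.card_product]
    congr 1
    ext x
    simp only [mem_filter, mem_product]
    constructor
    · rintro ⟨⟨⟨h3, h4⟩, h5⟩, h6⟩
      exact ⟨⟨h3, h6⟩, h4, h5 ▸ h6⟩
    · rintro ⟨⟨h3, h4⟩, h5, h6⟩
      exact ⟨⟨⟨h3, h5⟩, h4.trans h6.symm⟩, h4⟩
  rw [h2]
  conv_lhs => rw [h1]
  have h3 := sq_sum_le_card_mul_sum_sq (s := (univ : Finset T))
    (f := fun t => (s.filter (fun x => f x = t)).card)
  simpa using h3

/-- Skip the index `i`. -/
def skip (i : Fin (p + 1)) (k : Fin p) : Fin (p + 1) :=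
  ⟨if k.val < i.val then k.val else k.val + 1, by
    have := k.isLt
    split <;> omega⟩

/-- Collapse the indices `i`, `i + 1`. -/
def coll (i : Fin (p + 1)) (l : Fin (p + 2)) : Fin (p + 1) :=
  ⟨if l.val ≤ i.val then l.val else l.val - 1, by
    have := l.isLt
    have := i.isLt
    split <;> omega⟩

/-- A section of `coll` avoiding `i + 1`. -/
def lft (i : Fin (p + 1)) (j : Fin (p + 1)) : Fin (p + 2) :=
  ⟨if j.val ≤ i.val then j.val else j.val + 1, by
    have := j.isLt
    split <;> omega⟩

theorem coll_lft (i j : Fin (p + 1)) : coll i (lft i j) = j := by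
  apply Fin.ext
  simp only [coll, lft]
  split_ifs <;> simp_all <;> omega

theorem lft_ne (i j : Fin (p + 1)) : (lft i j).val ≠ i.val + 1 := by
  simp only [lft]
  split_ifs <;> omega

theorem eq_of_skip {i j : Fin (p + 1)} (h : j ≠ i) : ∃ k, skip i k = j := by
  have hne : j.val ≠ i.val := fun e => h (Fin.ext e)
  have hj := j.isLt
  have hi := i.isLt
  by_cases hlt : j.val < i.val
  · refine ⟨⟨j.val, by omega⟩, Fin.ext ?_⟩
    simp [skip, hlt]
  · refine ⟨⟨j.val - 1, by omega⟩, Fin.ext ?_⟩
    have h2 : ¬ (j.val - 1 < i.val) := by omega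
    simp only [skip, h2, if_false]
    omega

/-- The pattern with row `i` repeated. -/
def dupRow (H : Fin (p + 1) → Fin q → Bool) (i : Fin (p + 1)) : Fin (p + 2) → Fin q → Bool :=
  fun l j => H (coll i l) j

section dup

variable (H : Fin (p + 1) → Fin q → Bool) (i : Fin (p + 1)) (A : Fin n → Fin n → Bool)

/-- Deleting the row `i` from a copy. -/
def outer (x : (Fin (p + 1) → Fin n) × (Fin q → Fin n)) : (Fin p → Fin n) × (Fin q → Fin n) :=
  (fun k => x.1 (skip i k), x.2)

theorem outer_eq_rows {x y : (Fin (p + 1) → Fin n) × (Fin q → Fin n)}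
    (h : outer i x = outer i y) {j : Fin (p + 1)} (hj : j ≠ i) : x.1 j = y.1 j := by
  obtain ⟨k, rfl⟩ := eq_of_skip hj
  have := congrArg Prod.fst h
  exact congrFun this k

theorem outer_eq_cols {x y : (Fin (p + 1) → Fin n) × (Fin q → Fin n)}
    (h : outer i x = outer i y) : x.2 = y.2 := by
  have := congrArg Prod.snd h
  exact this

/-- The row tuple obtained by inserting the row of `y` into the rows of `x`. -/
def insRows (x y : Fin (p + 1) → Fin n) : Fin (p + 2) → Fin n :=
  fun l => if l.val = i.val + 1 then y i else x (coll i l)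

theorem insRows_strict {x y : (Fin (p + 1) → Fin n) × (Fin q → Fin n)}
    (hx : StrictMono x.1) (hy : StrictMono y.1) (hlt : x.1 i < y.1 i)
    (h : outer i x = outer i y) : StrictMono (insRows i x.1 y.1) := by
  intro l l' hll
  have hll' : l.val < l'.val := hll
  unfold insRows
  by_cases h1 : l.val = i.val + 1
  · have h2 : l'.val ≠ i.val + 1 := by omega
    simp only [h1, h2, if_true, if_false]
    have hne : coll i l' ≠ i := by
      intro e
      have := congrArg Fin.val e
      simp only [coll] at this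
      split_ifs at this <;> omega
    rw [outer_eq_rows i h hne]
    apply hy
    show i.val < (coll i l').val
    simp only [coll]
    split_ifs <;> omega
  · by_cases h2 : l'.val = i.val + 1
    · simp only [h1, h2, if_true, if_false]
      refine lt_of_le_of_lt ?_ hlt
      apply hx.monotone
      show (coll i l).val ≤ i.val
      simp only [coll]
      split_ifs <;> omega
    · simp only [h1, h2, if_false]
      apply hx
      show (coll i l).val < (coll i l').val
      simp only [coll]
      split_ifs <;> omega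

theorem ins_mem {x y : (Fin (p + 1) → Fin n) × (Fin q → Fin n)}
    (hx : x ∈ rcopies H A) (hy : y ∈ rcopies H A) (hlt : x.1 i < y.1 i)
    (h : outer i x = outer i y) : (insRows i x.1 y.1, x.2) ∈ rcopies (dupRow H i) A := by
  rw [mem_rcopies] at hx hy ⊢
  refine ⟨insRows_strict i hx.1 hy.1 hlt h, hx.2.1, ?_⟩
  intro l j
  show A (insRows i x.1 y.1 l) (x.2 j) = H (coll i l) j
  unfold insRows
  by_cases h1 : l.val = i.val + 1
  · simp only [h1, if_true]
    have e : coll i l = i := by
      apply Fin.ext
      simp only [coll]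
      split_ifs <;> omega
    rw [e, outer_eq_cols i h]
    exact hy.2.2 i j
  · simp only [h1, if_false]
    exact hx.2.2 _ j

open scoped Classical in
/-- The main counting inequality for a repeated row. -/
theorem rcount_sq_le :
    (rcount H A) ^ 2 ≤ n ^ p * n ^ q * (2 * rcount (dupRow H i) A + rcount H A) := by
  classical
  have h0 := fiber_cs (rcopies H A) (outer i)
  have hT : Fintype.card ((Fin p → Fin n) × (Fin q → Fin n)) = n ^ p * n ^ q := by
    simp
  rw [hT] at h0
  unfold rcount
  refine h0.trans (Nat.mul_le_mul_left _ ?_)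
  set Pp := ((rcopies H A) ×ˢ (rcopies H A)).filter (fun x => outer i x.1 = outer i x.2) with hPp
  -- three pieces
  have hsplit : Pp ⊆ (Pp.filter (fun x => x.1.1 i < x.2.1 i)) ∪
      (Pp.filter (fun x => x.2.1 i < x.1.1 i)) ∪ (Pp.filter (fun x => x.1.1 i = x.2.1 i)) := by
    intro x hx
    simp only [mem_union, mem_filter]
    rcases lt_trichotomy (x.1.1 i) (x.2.1 i) with h | h | h
    · exact Or.inl (Or.inl ⟨hx, h⟩)
    · exact Or.inr ⟨hx, h⟩
    · exact Or.inl (Or.inr ⟨hx, h⟩)
  have h1 : (Pp.filter (fun x => x.1.1 i < x.2.1 i)).card ≤ (rcopies (dupRow H i) A).card := by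
    apply Finset.card_le_card_of_injOn (fun x => (insRows i x.1.1 x.2.1, x.1.2))
    · intro x hx
      have hx' := Finset.mem_coe.mp hx
      obtain ⟨hx1, hlt⟩ := Finset.mem_filter.mp hx'
      obtain ⟨hx2, heq⟩ := Finset.mem_filter.mp hx1
      obtain ⟨hm1, hm2⟩ := Finset.mem_product.mp hx2
      exact Finset.mem_coe.mpr (ins_mem H i A hm1 hm2 hlt heq)
    · intro x hx y hy hxy
      have hx' := Finset.mem_coe.mp hx
      obtain ⟨hx1, _⟩ := Finset.mem_filter.mp hx'
      obtain ⟨_, heqx⟩ := Finset.mem_filter.mp hx1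
      have hy' := Finset.mem_coe.mp hy
      obtain ⟨hy1, _⟩ := Finset.mem_filter.mp hy'
      obtain ⟨_, heqy⟩ := Finset.mem_filter.mp hy1
      have e1 : insRows i x.1.1 x.2.1 = insRows i y.1.1 y.2.1 := by
        have := congrArg Prod.fst hxy
        exact this
      have e2 : x.1.2 = y.1.2 := by
        have := congrArg Prod.snd hxy
        exact this
      have e3 : x.1.1 = y.1.1 := by
        funext j
        have := congrFun e1 (lft i j)
        unfold insRows at this
        simp only [lft_ne, if_false, coll_lft] at this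
        exact this
      have e4 : x.1 = y.1 := Prod.ext e3 e2
      have e5 : x.2.1 i = y.2.1 i := by
        have := congrFun e1 ⟨i.val + 1, by have := i.isLt; omega⟩
        unfold insRows at this
        simpa using this
      have e6 : x.2.1 = y.2.1 := by
        funext j
        by_cases hj : j = i
        · rw [hj, e5]
        · have h5 := outer_eq_rows i heqx hj
          have h6 := outer_eq_rows i heqy hj
          rw [← h5, ← h6, e3]
      have e7 : x.2.2 = y.2.2 := by
        have h5 := outer_eq_cols i heqx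
        have h6 := outer_eq_cols i heqy
        rw [← h5, ← h6, e2]
      exact Prod.ext e4 (Prod.ext e6 e7)
  have h2 : (Pp.filter (fun x => x.2.1 i < x.1.1 i)).card ≤
      (Pp.filter (fun x => x.1.1 i < x.2.1 i)).card := by
    apply Finset.card_le_card_of_injOn (fun x => (x.2, x.1))
    · intro x hx
      have hx' := Finset.mem_coe.mp hx
      obtain ⟨hx1, hlt⟩ := Finset.mem_filter.mp hx'
      obtain ⟨hx2, heq⟩ := Finset.mem_filter.mp hx1
      obtain ⟨hm1, hm2⟩ := Finset.mem_product.mp hx2
      apply Finset.mem_coe.mpr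
      exact Finset.mem_filter.mpr ⟨Finset.mem_filter.mpr
        ⟨Finset.mem_product.mpr ⟨hm2, hm1⟩, heq.symm⟩, hlt⟩
    · intro x _ y _ hxy
      have e1 := congrArg Prod.fst hxy
      have e2 := congrArg Prod.snd hxy
      exact Prod.ext e2 e1
  have h3 : (Pp.filter (fun x => x.1.1 i = x.2.1 i)).card ≤ (rcopies H A).card := by
    apply Finset.card_le_card_of_injOn (fun x => x.1)
    · intro x hx
      have hx' := Finset.mem_coe.mp hx
      obtain ⟨hx1, _⟩ := Finset.mem_filter.mp hx'
      obtain ⟨hx2, _⟩ := Finset.mem_filter.mp hx1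
      exact Finset.mem_coe.mpr (Finset.mem_product.mp hx2).1
    · intro x hx y hy hxy
      have hx' := Finset.mem_coe.mp hx
      obtain ⟨hx1, hix⟩ := Finset.mem_filter.mp hx'
      obtain ⟨_, heqx⟩ := Finset.mem_filter.mp hx1
      have hy' := Finset.mem_coe.mp hy
      obtain ⟨hy1, hiy⟩ := Finset.mem_filter.mp hy'
      obtain ⟨_, heqy⟩ := Finset.mem_filter.mp hy1
      have hxy' : x.1 = y.1 := hxy
      have key : ∀ z : ((Fin (p + 1) → Fin n) × (Fin q → Fin n)) ×
          ((Fin (p + 1) → Fin n) × (Fin q → Fin n)),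
          outer i z.1 = outer i z.2 → z.1.1 i = z.2.1 i → z.2 = z.1 := by
        intro z h5 h6
        apply Prod.ext
        · funext j
          by_cases hj : j = i
          · rw [hj, h6]
          · exact (outer_eq_rows i h5 hj).symm
        · exact (outer_eq_cols i h5).symm
      have e1 := key x heqx hix
      have e2 := key y heqy hiy
      exact Prod.ext hxy' (by rw [e1, e2, hxy'])
  have h4 := Finset.card_le_card hsplit
  have h5 := Finset.card_union_le ((Pp.filter (fun x => x.1.1 i < x.2.1 i)) ∪
      (Pp.filter (fun x => x.2.1 i < x.1.1 i))) (Pp.filter (fun x => x.1.1 i = x.2.1 i))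
  have h6 := Finset.card_union_le (Pp.filter (fun x => x.1.1 i < x.2.1 i))
      (Pp.filter (fun x => x.2.1 i < x.1.1 i))
  omega

end dup

/-- Transpose of a matrix. -/
def tr {α β : Type} (A : α → β → Bool) : β → α → Bool := fun j i => A i j

theorem rcount_tr (H : Fin p → Fin q → Bool) (A : Fin n → Fin n → Bool) :
    rcount (tr H) (tr A) = rcount H A := by
  unfold rcount
  apply Finset.card_bij (fun x _ => (x.2, x.1))
  · intro x hx
    rw [mem_rcopies] at hx ⊢
    exact ⟨hx.2.1, hx.1, fun i j => hx.2.2 j i⟩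
  · intro x _ y _ h
    exact Prod.ext (congrArg Prod.snd h) (congrArg Prod.fst h)
  · intro x hx
    refine ⟨(x.2, x.1), ?_, rfl⟩
    rw [mem_rcopies] at hx ⊢
    exact ⟨hx.2.1, hx.1, fun i j => hx.2.2 j i⟩

end Vale.Agent.Lib.P037.Blow
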